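import Vale.Agent.Lib.P062.CertW.All

/-!
# P062: Maker wins the Snaky achievement game on the plane

On the initially empty board `ℤ × ℤ`, with no handicap and Maker moving first, Maker has a winning
strategy in the achievement game for Snaky: against every legal play of Breaker, Maker owns all
six cells of an allowed copy of Snaky after finitely many turns.

Maker opens at the origin.  The proof is a machine-checked certificate for all first replies of
Breaker: a family of lemmas of the form `Maker, to move and owning the cells M, wins against
every set of Breaker cells disjoint from the zone Z`, each proved by a proof tree (winning moves,
double threats, forced answers, quiet moves with a covering family of subtrees) that a verified
checker accepts.  The zones of the lemmas for the position after the first move have no common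
cell besides the origin, so every first reply of Breaker is outside the zone of one of them.
The replies that do not touch the origin, the four diagonal replies and the four edge-adjacent
replies (the last ones with the second move on the other side of the origin) are all covered.
-/

namespace Vale.Agent.Results.P062.A_MakerWins

open Vale.Agent.Lib.P062

theorem result : MakerWinsFrom (∅ : Finset Cell) ∅ :=
  CertW.maker_wins

end Vale.Agent.Results.P062.A_MakerWins
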