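import Vale.Agent.Lib.P062.NoBreakerW

/-!
# P062: Breaker has no winning strategy in the Snaky achievement game on the plane

The problem asks, in its second formulation, whether Breaker has a strategy that prevents Maker
from ever owning an allowed copy of Snaky on the initially empty board `ℤ × ℤ` (Maker moves
first, no handicap).  The answer is no: against every Breaker strategy there is a play of Maker,
legal at every move, after which Maker owns all six cells of an allowed copy of Snaky, or in
which the strategy fails to answer with an unclaimed cell.

The proof uses the machine-checked certificate for Maker (a winning plan against every first
reply of Breaker, verified by a checker proved sound) and an induction along that plan against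
the given Breaker strategy.
-/

namespace Vale.Agent.Results.P062.A_NoBreakerStrategy

open Vale.Agent.Lib.P062

theorem result : ¬ BreakerWins (Set.univ : Set Cell) (snakyCopiesIn Set.univ) :=
  not_breakerWins_plane

end Vale.Agent.Results.P062.A_NoBreakerStrategy
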