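import Vale.Agent.Lib.P062.Cert.All

/-!
# P062: in the Snaky game on the plane Maker wins against every non-adjacent first reply

Maker opens at the origin.  If Breaker's first reply is not one of the eight cells that touch the
origin (by an edge or a corner), then Maker has a winning strategy in the resulting position of
the achievement game for Snaky on the whole board `ℤ × ℤ`, with no handicap.

The proof is a machine-checked certificate: a family of lemmas of the form `Maker, to move and
owning the cells M, wins against every set of Breaker cells disjoint from the zone Z`, each proved
by a proof tree (winning moves, double threats, forced answers, quiet moves with a covering family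
of subtrees) that a verified checker accepts.
-/

namespace Vale.Agent.Results.P062.A_NonAdjacentReply

open Vale.Agent.Lib.P062

theorem result :
    ∀ b : Cell, b ≠ (0, 0) → ¬(|b.1| ≤ 1 ∧ |b.2| ≤ 1) → MakerWinsFrom {(0, 0)} {b} :=
  fun b hb0 hadj => Cert.maker_wins b hb0 hadj

end Vale.Agent.Results.P062.A_NonAdjacentReply
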