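import Vale.Agent.Lib.P062.Strip5

/-!
# P062: Breaker wins the Snaky game on every board inside the strip of height five

The board may be any set of cells contained in the strip `ℤ × {0, 1, 2, 3, 4}`: the infinite
strip itself, or any rectangular board with one side of length at most five.  Breaker wins by an
explicit pairing of period three.
-/

namespace Vale.Agent.Results.P062.D_StripFive

open Vale.Agent.Lib.P062

theorem result :
    ∀ B : Set Cell, (∀ p ∈ B, 0 ≤ p.2 ∧ p.2 ≤ 4) → BreakerWins B (snakyCopiesIn B) := by
  intro B hB
  exact breakerWins_strip5 B (fun p hp => hB p hp)

end Vale.Agent.Results.P062.D_StripFive
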